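import Vale.Agent.P043.Prime

/-!
# Tilings, multi-tilings and periodicity: the definitions used in the hand-ins
-/

namespace Vale.Agent.P043

variable {G : Type*} [AddCommGroup G]

/-- `A ⊕ F = G`: every `g` has a unique expression `g = a + f` with `a ∈ A`, `f ∈ F`. -/
def IsTiling (A : Set G) (F : Finset G) : Prop :=
  ∀ g : G, ∃! q : G × G, q.1 ∈ A ∧ q.2 ∈ F ∧ q.1 + q.2 = g

/-- Tiling of level `k`: every `g` has exactly `k` expressions `g = a + f` with `a ∈ A`, `f ∈ F`. -/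
def IsLevelTiling (k : ℕ) (A : Set G) (F : Finset G) : Prop :=
  ∀ g : G, {q : G × G | q.1 ∈ A ∧ q.2 ∈ F ∧ q.1 + q.2 = g}.ncard = k

/-- `A` is periodic: `A + h = A` for every `h` in some subgroup of finite index. -/
def IsPeriodic (A : Set G) : Prop :=
  ∃ L : AddSubgroup G, L.FiniteIndex ∧ ∀ h ∈ L, ∀ a : G, a + h ∈ A ↔ a ∈ A

theorem ncard_eq_cnt (A : Set G) (F : Finset G) (g : G) :
    {q : G × G | q.1 ∈ A ∧ q.2 ∈ F ∧ q.1 + q.2 = g}.ncard = cnt A F 1 g := by
  classical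
  have : {q : G × G | q.1 ∈ A ∧ q.2 ∈ F ∧ q.1 + q.2 = g} =
      ((F.filter (fun f => g - (1 : ℕ) • f ∈ A)).image (fun f => (g - f, f)) : Finset (G × G)) := by
    ext ⟨a, f⟩
    simp only [Set.mem_ofPred_eq, one_smul, Finset.coe_image, Finset.coe_filter, Set.mem_image,
      Prod.mk.injEq]
    constructor
    · rintro ⟨ha, hf, rfl⟩
      exact ⟨f, ⟨hf, by simpa using ha⟩, by simp, rfl⟩
    · rintro ⟨f', ⟨hf', ha'⟩, rfl, rfl⟩
      exact ⟨ha', hf', by simp⟩
  rw [this, Set.ncard_coe_finset, Finset.card_image_of_injective]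
  · rfl
  · intro f f' h
    exact (Prod.mk.inj h).2

theorem isLevelTiling_iff {k : ℕ} {A : Set G} {F : Finset G} :
    IsLevelTiling k A F ↔ ∀ x, cnt A F 1 x = k := by
  unfold IsLevelTiling
  simp only [ncard_eq_cnt]

theorem isTiling_iff_level_one {A : Set G} {F : Finset G} :
    IsTiling A F ↔ IsLevelTiling 1 A F := by
  unfold IsTiling IsLevelTiling
  refine forall_congr' (fun g => ?_)
  rw [Set.ncard_eq_one]
  constructor
  · rintro ⟨q, hq, huniq⟩
    refine ⟨q, ?_⟩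
    ext q'
    simp only [Set.mem_ofPred_eq, Set.mem_singleton_iff]
    exact ⟨fun h => huniq q' h, fun h => h ▸ hq⟩
  · rintro ⟨q, hq⟩
    refine ⟨q, ?_, ?_⟩
    · have : q ∈ {q : G × G | q.1 ∈ A ∧ q.2 ∈ F ∧ q.1 + q.2 = g} := by rw [hq]; rfl
      exact this
    · intro q' hq'
      have : q' ∈ {q : G × G | q.1 ∈ A ∧ q.2 ∈ F ∧ q.1 + q.2 = g} := hq'
      rw [hq] at this
      exact this

/-- Main theorem on tiles of prime cardinality, level `k` version. -/
theorem prime_level [AddGroup.FG G] {k : ℕ} {A : Set G} {F : Finset G} (hF : F.card.Prime)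
    (hA : IsLevelTiling k A F) :
    (∀ f ∈ F, ∀ f' ∈ F, ∀ a : G, a + F.card • (f - f') ∈ A ↔ a ∈ A) ∧
      ∃ A' : Set G, IsLevelTiling k A' F ∧ IsPeriodic A' := by
  have : Fact F.card.Prime := ⟨hF⟩
  rw [isLevelTiling_iff] at hA
  refine ⟨fun f hf f' hf' a => smul_sub_mem_stab rfl hA hf hf' a, ?_⟩
  obtain ⟨A', hA', L, hL, hLs⟩ := exists_periodic rfl hA
  exact ⟨A', isLevelTiling_iff.2 hA', L, hL, fun h hh a => hLs hh a⟩

end Vale.Agent.P043
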