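import Mathlib

/-!
# Translational tilings: the Frobenius (mod p) counting lemma
-/

namespace Vale.Agent.P043

open Finset

variable {G : Type*} [AddCommGroup G]

/-- `cnt A F m x` is the number of `f ∈ F` with `x - m • f ∈ A`. -/
noncomputable def cnt (A : Set G) (F : Finset G) (m : ℕ) (x : G) : ℕ := by
  classical exact (F.filter (fun f => x - m • f ∈ A)).card

section ops

variable (R : Type*) [CommRing R]

/-- The shift operator on functions `G → R`. -/
def shift (g : G) : Module.End R (G → R) := LinearMap.funLeft R R (fun x => x - g)

@[simp] theorem shift_apply (g : G) (u : G → R) (x : G) : shift R g u x = u (x - g) := rfl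

theorem shift_mul (g h : G) : shift R g * shift R h = shift R (g + h) := by
  ext u x
  simp only [Module.End.mul_apply, shift_apply]
  congr 1
  abel

theorem shift_zero : shift R (0 : G) = 1 := by
  ext u x
  simp

theorem shift_pow (g : G) (m : ℕ) : shift R g ^ m = shift R (m • g) := by
  induction m with
  | zero => simp [shift_zero]
  | succ m ih => rw [pow_succ, ih, shift_mul, succ_nsmul]

theorem shift_commute (g h : G) : Commute (shift R g) (shift R h) := by
  unfold Commute SemiconjBy
  rw [shift_mul, shift_mul, add_comm]

/-- The sum of the shifts by the elements of `F`. -/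
def sumShift (F : Finset G) : Module.End R (G → R) := ∑ f ∈ F, shift R f

theorem sumShift_apply (F : Finset G) (u : G → R) (x : G) :
    sumShift R F u x = ∑ f ∈ F, u (x - f) := by
  simp [sumShift, LinearMap.sum_apply, Finset.sum_apply]

theorem sumShift_const (F : Finset G) (c : R) :
    sumShift R F (fun _ => c) = fun _ => (F.card : R) * c := by
  funext x
  simp [sumShift_apply]

theorem sumShift_pow_const (F : Finset G) (c : R) (m : ℕ) :
    (sumShift R F ^ m) (fun _ => c) = fun _ => (F.card : R) ^ m * c := by
  induction m with
  | zero => simp
  | succ m ih =>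
    rw [pow_succ', Module.End.mul_apply, ih, sumShift_const]
    funext x
    ring

end ops

section frob

variable (p : ℕ) [hp : Fact p.Prime]

instance charP_end : CharP (Module.End (ZMod p) (G → ZMod p)) p := by
  apply charP_of_injective_algebraMap (R := ZMod p)
  intro a b hab
  have h := congrArg (fun (T : Module.End (ZMod p) (G → ZMod p)) => T (fun _ => 1) 0) hab
  simpa [Module.algebraMap_end_apply] using h

theorem sumShift_pow_prime (F : Finset G) :
    sumShift (ZMod p) F ^ p = ∑ f ∈ F, shift (ZMod p) (p • f) := by
  classical
  unfold sumShift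
  induction F using Finset.induction_on with
  | empty => simp [hp.out.ne_zero]
  | insert a s ha ih =>
    rw [Finset.sum_insert ha, Finset.sum_insert ha, add_pow_char_of_commute, ih, shift_pow]
    exact Commute.sum_right _ _ _ (fun i _ => shift_commute _ _ _)

/-- The indicator function of `A` with values in `R`. -/
noncomputable def ind (R : Type*) [CommRing R] (A : Set G) : G → R := by
  classical exact fun x => if x ∈ A then 1 else 0

theorem cnt_cast (R : Type*) [CommRing R] (A : Set G) (F : Finset G) (m : ℕ) (x : G) :
    (cnt A F m x : R) = ∑ f ∈ F, ind R A (x - m • f) := by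
  classical
  simp [cnt, ind]

/-- Frobenius counting lemma: if every point is covered exactly `k` times by the translates
`a + F`, `a ∈ A`, then modulo a prime `p` the number of `f ∈ F` with `x - p • f ∈ A` is
`|F| ^ (p - 1) * k`. -/
theorem cnt_prime_cast (A : Set G) (F : Finset G) (k : ℕ) (h : ∀ x, cnt A F 1 x = k) (x : G) :
    (cnt A F p x : ZMod p) = (F.card : ZMod p) ^ (p - 1) * k := by
  have h1 : sumShift (ZMod p) F (ind (ZMod p) A) = fun _ => (k : ZMod p) := by
    funext y
    rw [sumShift_apply, ← h y, cnt_cast]
    simp
  have h2 : (sumShift (ZMod p) F ^ p) (ind (ZMod p) A) = fun _ => (F.card : ZMod p) ^ (p - 1) * k := by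
    have hp1 : sumShift (ZMod p) F ^ p = sumShift (ZMod p) F ^ (p - 1) * sumShift (ZMod p) F := by
      rw [← pow_succ, Nat.sub_add_cancel hp.out.one_le]
    rw [hp1, Module.End.mul_apply, h1, sumShift_pow_const]
  rw [sumShift_pow_prime] at h2
  have h3 := congrFun h2 x
  rw [cnt_cast]
  simpa [LinearMap.sum_apply, Finset.sum_apply] using h3

end frob

end Vale.Agent.P043
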