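import Vale.Agent.P043.Frob

/-!
# Tiles of prime cardinality
-/

namespace Vale.Agent.P043

open Finset

variable {G : Type*} [AddCommGroup G]

/-- The group of periods of a set `A`. -/
def stab (A : Set G) : AddSubgroup G where
  carrier := {g | ∀ a, a + g ∈ A ↔ a ∈ A}
  zero_mem' := by intro a; simp
  add_mem' := by
    intro g h hg hh a
    rw [← add_assoc, hh, hg]
  neg_mem' := by
    intro g hg a
    have := hg (a + -g)
    rw [neg_add_cancel_right] at this
    exact this.symm

theorem mem_stab {A : Set G} {g : G} : g ∈ stab A ↔ ∀ a, a + g ∈ A ↔ a ∈ A := Iff.rfl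

theorem cnt_le (A : Set G) (F : Finset G) (m : ℕ) (x : G) : cnt A F m x ≤ F.card := by
  classical
  exact card_filter_le _ _

theorem mem_of_cnt_eq_card {A : Set G} {F : Finset G} {m : ℕ} {x : G}
    (h : cnt A F m x = F.card) : ∀ f ∈ F, x - m • f ∈ A := by
  classical
  intro f hf
  have := (Finset.card_filter_eq_iff).1 h
  exact this f hf

theorem cnt_pos_of_mem {A : Set G} {F : Finset G} {m : ℕ} {x f : G} (hf : f ∈ F)
    (hx : x - m • f ∈ A) : 0 < cnt A F m x := by
  classical
  exact Finset.card_pos.2 ⟨f, Finset.mem_filter.2 ⟨hf, hx⟩⟩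

theorem add_smul_sub_mem {A : Set G} {F : Finset G} {k p : ℕ} [hp : Fact p.Prime]
    (hcard : F.card = p) (h : ∀ x, cnt A F 1 x = k) {f f' a : G} (hf : f ∈ F) (hf' : f' ∈ F)
    (ha : a ∈ A) : a + p • (f - f') ∈ A := by
  have h0 : (cnt A F p (a + p • f) : ZMod p) = 0 := by
    rw [cnt_prime_cast p A F k h, hcard, ZMod.natCast_self,
      zero_pow (Nat.sub_ne_zero_of_lt hp.out.one_lt), zero_mul]
  have hdvd : p ∣ cnt A F p (a + p • f) := (ZMod.natCast_eq_zero_iff _ _).1 h0
  have hpos : 0 < cnt A F p (a + p • f) := cnt_pos_of_mem hf (by simpa using ha)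
  have hle : cnt A F p (a + p • f) ≤ p := hcard ▸ cnt_le A F p _
  have heq : cnt A F p (a + p • f) = F.card := by
    rw [hcard]
    exact le_antisymm hle (Nat.le_of_dvd hpos hdvd)
  have := mem_of_cnt_eq_card heq f' hf'
  rwa [smul_sub, ← add_sub_assoc]

theorem smul_sub_mem_stab {A : Set G} {F : Finset G} {k p : ℕ} [hp : Fact p.Prime]
    (hcard : F.card = p) (h : ∀ x, cnt A F 1 x = k) {f f' : G} (hf : f ∈ F) (hf' : f' ∈ F) :
    p • (f - f') ∈ stab A := by
  intro a
  constructor
  · intro ha
    have := add_smul_sub_mem hcard h hf' hf ha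
    have e : a + p • (f - f') + p • (f' - f) = a := by
      rw [add_assoc, ← smul_add]
      simp
    rwa [e] at this
  · intro ha
    exact add_smul_sub_mem hcard h hf hf' ha

/-- The subgroup generated by the differences of elements of `F`. -/
def diffGroup (F : Finset G) : AddSubgroup G :=
  AddSubgroup.closure {g | ∃ f ∈ F, ∃ f' ∈ F, g = f - f'}

theorem sub_mem_diffGroup {F : Finset G} {f f' : G} (hf : f ∈ F) (hf' : f' ∈ F) :
    f - f' ∈ diffGroup F :=
  AddSubgroup.subset_closure ⟨f, hf, f', hf', rfl⟩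

theorem smul_mem_stab_of_mem_diffGroup {A : Set G} {F : Finset G} {k p : ℕ} [hp : Fact p.Prime]
    (hcard : F.card = p) (h : ∀ x, cnt A F 1 x = k) {g : G} (hg : g ∈ diffGroup F) :
    p • g ∈ stab A := by
  have hle : diffGroup F ≤ (stab A).comap (nsmulAddMonoidHom p) := by
    unfold diffGroup
    rw [AddSubgroup.closure_le]
    rintro _ ⟨f, hf, f', hf', rfl⟩
    exact smul_sub_mem_stab hcard h hf hf'
  exact hle hg

/-- In a finitely generated abelian group, for every subgroup `H` and `p > 0` there is `m > 0`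
such that every multiple of `m` lying in `H` already lies in `p H`. -/
theorem exists_mul_saturate [AddGroup.FG G] (H : AddSubgroup G) (p : ℕ) (hp : 0 < p) :
    ∃ m : ℕ, 0 < m ∧ ∀ y : G, m • y ∈ H → ∃ h ∈ H, m • y = p • h := by
  classical
  let K : AddSubgroup G := H.map (nsmulAddMonoidHom p)
  let Sat : AddSubgroup G :=
    { carrier := {g | ∃ j : ℕ, 0 < j ∧ j • g ∈ K}
      zero_mem' := ⟨1, one_pos, by simp⟩
      add_mem' := by
        rintro a b ⟨i, hi, hia⟩ ⟨j, hj, hjb⟩
        refine ⟨i * j, Nat.mul_pos hi hj, ?_⟩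
        rw [smul_add]
        refine K.add_mem ?_ ?_
        · rw [mul_comm, mul_smul]
          exact K.nsmul_mem hia j
        · rw [mul_smul]
          exact K.nsmul_mem hjb i
      neg_mem' := by
        rintro a ⟨i, hi, hia⟩
        exact ⟨i, hi, by rw [smul_neg]; exact K.neg_mem hia⟩ }
  have : Module.Finite ℤ G := Module.Finite.iff_addGroup_fg.mpr inferInstance
  have hfg : Sat.FG := by
    have h1 : (AddSubgroup.toIntSubmodule Sat).FG := IsNoetherian.noetherian _
    rw [Submodule.fg_iff_addSubgroup_fg] at h1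
    simpa using h1
  obtain ⟨S, hS⟩ := hfg
  have hSmem : ∀ s ∈ S, ∃ j : ℕ, 0 < j ∧ j • s ∈ K := by
    intro s hs
    have : s ∈ Sat := hS ▸ AddSubgroup.subset_closure hs
    exact this
  let j : G → ℕ := fun g => if h : ∃ j : ℕ, 0 < j ∧ j • g ∈ K then h.choose else 1
  have hjpos : ∀ g, 0 < j g := by
    intro g
    by_cases h : ∃ j : ℕ, 0 < j ∧ j • g ∈ K
    · simp only [j, dif_pos h]; exact h.choose_spec.1
    · simp only [j, dif_neg h]; exact one_pos
  have hjmem : ∀ s ∈ S, j s • s ∈ K := by
    intro s hs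
    have h := hSmem s hs
    simp only [j, dif_pos h]; exact h.choose_spec.2
  refine ⟨∏ s ∈ S, j s, Finset.prod_pos (fun s _ => hjpos s), ?_⟩
  set m := ∏ s ∈ S, j s with hm
  have hall : ∀ y ∈ Sat, m • y ∈ K := by
    have hle : Sat ≤ K.comap (nsmulAddMonoidHom m) := by
      rw [← hS, AddSubgroup.closure_le]
      intro s hs
      obtain ⟨c, hc⟩ := Finset.dvd_prod_of_mem j hs
      change m • s ∈ K
      rw [hm, hc, mul_comm, mul_smul]
      exact K.nsmul_mem (hjmem s hs) c
    exact fun y hy => hle hy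
  intro y hy
  have hySat : y ∈ Sat := by
    refine ⟨p * m, Nat.mul_pos hp (Finset.prod_pos (fun s _ => hjpos s)), ?_⟩
    rw [mul_smul]
    exact ⟨m • y, hy, rfl⟩
  obtain ⟨h, hh, he⟩ := hall y hySat
  exact ⟨h, hh, he.symm⟩

theorem finiteIndex_range_nsmul [AddGroup.FG G] (m : ℕ) (hm : 0 < m) :
    (nsmulAddMonoidHom (α := G) m).range.FiniteIndex := by
  have htors : IsAddTorsion (G ⧸ (nsmulAddMonoidHom (α := G) m).range) := by
    intro x
    induction x using QuotientAddGroup.induction_on with
    | H g =>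
      rw [isOfFinAddOrder_iff_nsmul_eq_zero]
      refine ⟨m, hm, ?_⟩
      rw [← QuotientAddGroup.mk_nsmul, QuotientAddGroup.eq_zero_iff]
      exact ⟨g, rfl⟩
  have := AddCommGroup.finite_of_fg_isAddTorsion _ htors
  exact AddSubgroup.finiteIndex_of_finite_quotient

/-- A level-`k` tiling by a tile of prime cardinality of a finitely generated abelian group can be
replaced by one whose period group has finite index. -/
theorem exists_periodic [AddGroup.FG G] {A : Set G} {F : Finset G} {k p : ℕ} [hp : Fact p.Prime]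
    (hcard : F.card = p) (h : ∀ x, cnt A F 1 x = k) :
    ∃ A' : Set G, (∀ x, cnt A' F 1 x = k) ∧ ∃ L : AddSubgroup G, L.FiniteIndex ∧ L ≤ stab A' := by
  classical
  have hne : F.Nonempty := by
    rw [← Finset.card_pos, hcard]; exact hp.out.pos
  obtain ⟨f0, hf0⟩ := hne
  set H := diffGroup F with hH
  obtain ⟨m, hm, hsat⟩ := exists_mul_saturate H p hp.out.pos
  set L : AddSubgroup G := (nsmulAddMonoidHom (α := G) m).range with hL
  set K : AddSubgroup G := L ⊔ H with hK
  let ρ : G → G := fun g => (QuotientAddGroup.mk g : G ⧸ K).out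
  have hρ_add : ∀ g k', k' ∈ K → ρ (g + k') = ρ g := by
    intro g k' hk'
    simp only [ρ]
    congr 1
    rw [QuotientAddGroup.mk_add_of_mem g hk']
  have hρ_dec : ∀ g, ∃ y h', h' ∈ H ∧ g = ρ g + m • y + h' := by
    intro g
    obtain ⟨⟨k', hk'⟩, hk⟩ := QuotientAddGroup.mk_out_eq_add K g
    have hk2 : -k' ∈ K := K.neg_mem hk'
    rw [hK, AddSubgroup.mem_sup] at hk2
    obtain ⟨l, ⟨y, rfl⟩, h', hh', he⟩ := hk2
    refine ⟨y, h', hh', ?_⟩
    change g = (QuotientAddGroup.mk g : G ⧸ K).out + m • y + h'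
    rw [hk]
    simp only [nsmulAddMonoidHom_apply] at he
    rw [add_assoc, he]
    simp
  let A' : Set G := {g | ∃ y a, a ∈ A ∧ a + f0 ∈ H ∧ g = ρ (g + f0) + m • y + a}
  have hHK : H ≤ K := le_sup_right
  have hLK : L ≤ K := le_sup_left
  have key : ∀ x y h', h' ∈ H → x = ρ x + m • y + h' → ∀ f ∈ F, (x - f ∈ A' ↔ h' - f ∈ A) := by
    intro x y h' hh' hx f hf
    have hρx : ρ (x - f + f0) = ρ x := by
      have : x - f + f0 = x + (f0 - f) := by abel
      rw [this]
      exact hρ_add _ _ (hHK (sub_mem_diffGroup hf0 hf))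
    constructor
    · rintro ⟨y', a, ha, haH, he⟩
      rw [hρx] at he
      have e1 : m • (y' - y) = h' - (f - f0) - (a + f0) := by
        have e2 : ρ x + m • y + h' - f = ρ x + m • y' + a := by rw [← hx]; exact he
        rw [smul_sub]
        have e3 : m • y + h' - f = m • y' + a := by
          have := congrArg (fun t => t - ρ x) e2
          have l1 : ρ x + m • y + h' - f - ρ x = m • y + h' - f := by abel
          have l2 : ρ x + m • y' + a - ρ x = m • y' + a := by abel
          calc m • y + h' - f = ρ x + m • y + h' - f - ρ x := l1.symm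
            _ = ρ x + m • y' + a - ρ x := this
            _ = m • y' + a := l2
        have e4 : m • y' = m • y + h' - f - a := by rw [e3]; abel
        rw [e4]; abel
      have hmem : m • (y' - y) ∈ H := by
        rw [e1]
        exact H.sub_mem (H.sub_mem hh' (sub_mem_diffGroup hf hf0)) haH
      obtain ⟨h'', hh'', e5⟩ := hsat _ hmem
      have hst : m • (y' - y) ∈ stab A := by
        rw [e5]
        exact smul_mem_stab_of_mem_diffGroup hcard h hh''
      have : a + m • (y' - y) ∈ A := (hst a).2 ha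
      have e6 : a + m • (y' - y) = h' - f := by rw [e1]; abel
      rwa [e6] at this
    · intro ha
      refine ⟨y, h' - f, ha, ?_, ?_⟩
      · have : h' - f + f0 = h' - (f - f0) := by abel
        rw [this]
        exact H.sub_mem hh' (sub_mem_diffGroup hf hf0)
      · rw [hρx]
        conv_lhs => rw [hx]
        abel
  refine ⟨A', ?_, L, finiteIndex_range_nsmul m hm, ?_⟩
  · intro x
    obtain ⟨y, h', hh', hx⟩ := hρ_dec x
    rw [← h h']
    unfold cnt
    congr 1
    apply Finset.filter_congr
    intro f hf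
    simp only [one_smul]
    exact key x y h' hh' hx f hf
  · rintro _ ⟨y0, rfl⟩ g
    simp only [nsmulAddMonoidHom_apply]
    have hmem : m • y0 ∈ K := hLK ⟨y0, rfl⟩
    constructor
    · rintro ⟨y, a, ha, haH, he⟩
      refine ⟨y - y0, a, ha, haH, ?_⟩
      have e1 : g + m • y0 + f0 = g + f0 + m • y0 := by abel
      rw [e1, hρ_add _ _ hmem] at he
      rw [smul_sub]
      have : g = g + m • y0 - m • y0 := by abel
      rw [this, he]
      have e2 : ρ (g + f0) + m • y + a - m • y0 + f0 = g + f0 := by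
        rw [← he]; abel
      rw [e2]
      abel
    · rintro ⟨y, a, ha, haH, he⟩
      refine ⟨y + y0, a, ha, haH, ?_⟩
      have e1 : g + m • y0 + f0 = g + f0 + m • y0 := by abel
      rw [e1, hρ_add _ _ hmem, smul_add]
      conv_lhs => rw [he]
      abel

end Vale.Agent.P043
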